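import Vale.Agent.P173B.Fox
import Mathlib.LinearAlgebra.LinearIndependent.Defs
import Mathlib.Algebra.Star.Unitary
import Mathlib.Analysis.Complex.Basic
import Mathlib.LinearAlgebra.Matrix.ConjTranspose

/-! The analytic core (helper97 is proving this file).

`(π0, x)` describes an acyclic two-complex with free cocompact `G`-action and one vertex orbit;
`(π, r)` is any presentation of `G` whose Cayley complex has `H₂ = 0`. Then small flat unitary
connections on finite subcomplexes with `H¹(-; ℝ) = 0` are gauge trivial. -/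

namespace Vale.Agent.P173B

open Function

theorem core2 {G S0 J S R κ : Type*} [Group G] [Finite J] [Fintype κ] [DecidableEq κ]
    (π0 : S0 → G) (hπ0 : Surjective (FreeGroup.lift π0))
    (x : J → FreeGroup S0) (hx : ∀ j, FreeGroup.lift π0 (x j) = 1)
    (hinj0 : LinearIndependent ℤ fun c : G × J => fox π0 c.1 (x c.2))
    (hex0 : ∀ n, FreeGroup.lift π0 n = 1 →
      fox π0 1 n ∈ Submodule.span ℤ (Set.range fun c : G × J => fox π0 c.1 (x c.2)))
    (π : S → G) (hπ : Surjective (FreeGroup.lift π)) (r : R → FreeGroup S)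
    (hr : (FreeGroup.lift π).ker = Subgroup.normalClosure (Set.range r))
    (hinj : LinearIndependent ℤ fun c : G × R => fox π c.1 (r c.2)) :
    ∃ ε : ℝ, 0 < ε ∧ ∀ (E : Finset (G × S0)) (F : Finset (G × J))
      (ρ : G × S0 → unitary (Matrix κ κ ℂ)),
      (∀ f ∈ F, path π0 f.1 (x f.2) ∈ Subgroup.closure (FreeGroup.of '' (E : Set (G × S0)))) →
      (∀ v : G × S0 → ℝ, (∀ f ∈ F, Finsupp.linearCombination ℤ v (fox π0 f.1 (x f.2)) = 0) →
        ∃ k : G → ℝ, ∀ e ∈ E, v e = k (e.1 * π0 e.2) - k e.1) →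
      (∀ e ∈ E, ∀ a b, ‖((ρ e : Matrix κ κ ℂ) - 1) a b‖ ≤ ε) →
      (∀ f ∈ F, hol π0 ρ f.1 (x f.2) = 1) →
      ∃ k : G → unitary (Matrix κ κ ℂ), ∀ e ∈ E, ρ e = (k e.1)⁻¹ * k (e.1 * π0 e.2) := by
  sorry

end Vale.Agent.P173B
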