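import Vale.Agent.P173B.Fox
import Mathlib.Analysis.SpecialFunctions.Exponential
import Mathlib.Algebra.Star.Unitary

/-! Uniform estimates for holonomies. -/

namespace Vale.Agent.P173B

open Filter Asymptotics Topology

set_option linter.unusedSectionVars false

variable {A : Type*} [NormedRing A] [NormedAlgebra ℝ A] [StarRing A]

/-- The skew part. -/
noncomputable def sk (y : A) : A := (1 / 2 : ℝ) • (y - star y)

lemma sk_id (u : unitary A) :
    (u : A) - 1 - sk (u : A) = (-1 / 2 : ℝ) • ((star (u : A) - 1) * (u - 1)) := by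
  have : (star (u : A) - 1) * (u - 1) = (2 : ℝ) • (1 : A) - u - star (u : A) := by
    rw [sub_mul, mul_sub, u.2.1, two_smul]; noncomm_ring
  rw [this, sk]
  module

lemma star_sub_one (u : unitary A) : star (u : A) - 1 = -(star (u : A) * (u - 1)) := by
  rw [mul_sub, u.2.1]; simp

section

variable {c : ℝ} (hc : ∀ u : unitary A, ‖(u : A)‖ ≤ c)
include hc

lemma c_nonneg : 0 ≤ c := (norm_nonneg _).trans (hc 1)

lemma norm_star_le (u : unitary A) : ‖star (u : A)‖ ≤ c := hc (star u)

lemma norm_star_sub (u : unitary A) : ‖star (u : A) - 1‖ ≤ c * ‖(u : A) - 1‖ := by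
  rw [star_sub_one, norm_neg]
  exact (norm_mul_le _ _).trans (by gcongr; exact norm_star_le hc u)

lemma norm_sub_le_sk (u : unitary A) (h : c * ‖(u : A) - 1‖ ≤ 1) :
    ‖(u : A) - 1‖ ≤ 2 * ‖sk (u : A)‖ := by
  have h1 := norm_sub_norm_le ((u : A) - 1) (sk (u : A))
  rw [sk_id, norm_smul] at h1
  have h2 := norm_mul_le (star (u : A) - 1) ((u : A) - 1)
  have h3 := (norm_star_sub hc u).trans h
  have h4 : ‖(-1 / 2 : ℝ)‖ = 1 / 2 := by norm_num
  rw [h4] at h1
  nlinarith [norm_nonneg ((u : A) - 1)]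

lemma lip {X : Type*} (p : FreeGroup X) : ∃ C, 0 ≤ C ∧ ∀ (u u' : X → unitary A) (η : ℝ), 0 ≤ η →
    (∀ e, ‖(u e : A) - u' e‖ ≤ η) →
      ‖(FreeGroup.lift u p : unitary A).1 - (FreeGroup.lift u' p : unitary A).1‖ ≤ C * η := by
  have c0 := c_nonneg hc
  induction p using FreeGroup.induction_on with
  | C1 => exact ⟨0, le_rfl, fun u u' η _ _ => by simp⟩
  | of x => exact ⟨1, zero_le_one, fun u u' η _ h => by simpa using h x⟩
  | inv_of x _ =>
    refine ⟨c * c, by positivity, fun u u' η h0 h => ?_⟩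
    have : star (u x : A) - star (u' x : A) = -(star (u x : A) * (u x - u' x) * star (u' x : A)) := by
      rw [mul_sub, sub_mul, (u x).2.1, mul_assoc, (u' x).2.2]; simp
    simp only [map_inv, FreeGroup.lift_apply_of, ← Unitary.star_eq_inv, Unitary.coe_star]
    rw [this, norm_neg]
    calc _ ≤ ‖star (u x : A)‖ * ‖(u x : A) - u' x‖ * ‖star (u' x : A)‖ :=
          (norm_mul_le _ _).trans (by gcongr; exact norm_mul_le _ _)
      _ ≤ c * η * c := by gcongr; exacts [norm_star_le hc _, h x, norm_star_le hc _]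
      _ = _ := by ring
  | mul a b ha hb =>
    obtain ⟨C, C0, ha⟩ := ha
    obtain ⟨C', C0', hb⟩ := hb
    refine ⟨C * c + c * C', by positivity, fun u u' η h0 h => ?_⟩
    have e : ∀ a b a' b' : A, a * b - a' * b' = (a - a') * b + a' * (b - b') := by
      intros; noncomm_ring
    simp only [map_mul, Submonoid.coe_mul]
    rw [e]
    refine (norm_add_le_of_le (norm_mul_le _ _) (norm_mul_le _ _)).trans ?_
    calc _ ≤ C * η * c + c * (C' * η) := by
          gcongr; exacts [ha u u' η h0 h, hc _, hc _, hb u u' η h0 h]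
      _ = _ := by ring

lemma lin {X : Type*} (p : FreeGroup X) : ∃ C, 0 ≤ C ∧ ∀ (u : X → unitary A) (η : ℝ), 0 ≤ η →
    (∀ e, ‖(u e : A) - 1‖ ≤ η) → ‖(FreeGroup.lift u p : unitary A).1 - 1 -
      Finsupp.linearCombination ℤ (fun e => sk (u e : A)) (ab p)‖ ≤ C * η ^ 2 := by
  have c0 := c_nonneg hc
  have l1 : ∀ p : FreeGroup X, ∃ C, 0 ≤ C ∧ ∀ (u : X → unitary A) (η : ℝ), 0 ≤ η →
      (∀ e, ‖(u e : A) - 1‖ ≤ η) → ‖(FreeGroup.lift u p : unitary A).1 - 1‖ ≤ C * η := fun p => by
    obtain ⟨C, C0, h⟩ := lip hc p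
    refine ⟨C, C0, fun u η h0 h1 => ?_⟩
    have e : FreeGroup.lift (fun _ : X => (1 : unitary A)) = 1 := FreeGroup.ext_hom _ _ (by simp)
    simpa [e] using h u (fun _ => 1) η h0 h1
  have g : ∀ (u : unitary A) (η : ℝ), ‖(u : A) - 1‖ ≤ η →
      ‖(star (u : A) - 1) * (u - 1 : A)‖ ≤ c * η ^ 2 := fun u η h => (norm_mul_le _ _).trans (by
      calc _ ≤ c * η * η := by
            have := (norm_nonneg _).trans h
            gcongr
            exact (norm_star_sub hc u).trans (by gcongr)
        _ = _ := by ring)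
  induction p using FreeGroup.induction_on with
  | C1 => exact ⟨0, le_rfl, fun u η _ _ => by simp⟩
  | of x =>
    refine ⟨c, c0, fun u η _ h => ?_⟩
    simp only [FreeGroup.lift_apply_of, ab_of, Finsupp.linearCombination_single, one_smul, sk_id,
      norm_smul]
    have := g _ _ (h x)
    have h4 : ‖(-1 / 2 : ℝ)‖ = 1 / 2 := by norm_num
    rw [h4]
    nlinarith [norm_nonneg ((star (u x : A) - 1) * (u x - 1 : A))]
  | inv_of x _ =>
    refine ⟨c, c0, fun u η _ h => ?_⟩
    have e : star (u x : A) - 1 - -sk (u x : A) =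
        (-1 / 2 : ℝ) • ((star (u x : A) - 1) * (u x - 1)) := by
      rw [← sk_id, sk]; module
    simp only [map_inv, FreeGroup.lift_apply_of, ab_inv, ab_of, map_neg,
      Finsupp.linearCombination_single, one_smul, ← Unitary.star_eq_inv, Unitary.coe_star, e,
      norm_smul]
    have := g _ _ (h x)
    have h4 : ‖(-1 / 2 : ℝ)‖ = 1 / 2 := by norm_num
    rw [h4]
    nlinarith [norm_nonneg ((star (u x : A) - 1) * (u x - 1 : A))]
  | mul a b ha hb =>
    obtain ⟨C, C0, ha⟩ := ha
    obtain ⟨C', C0', hb⟩ := hb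
    obtain ⟨L, L0, la⟩ := l1 a
    obtain ⟨L', L0', lb⟩ := l1 b
    refine ⟨C + C' + L * L', by positivity, fun u η h0 h => ?_⟩
    have e : ∀ a b a' b' : A, a * b - 1 - (a' + b') =
        (a - 1 - a') + (b - 1 - b') + (a - 1) * (b - 1) := by intros; noncomm_ring
    simp only [map_mul, Submonoid.coe_mul, ab_mul, map_add]
    rw [e]
    refine (norm_add_le_of_le (norm_add_le _ _) (norm_mul_le _ _)).trans ?_
    calc _ ≤ C * η ^ 2 + C' * η ^ 2 + L * η * (L' * η) := by
          gcongr; exacts [ha u η h0 h, hb u η h0 h, la u η h0 h, lb u η h0 h]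
      _ = _ := by ring

end

variable {G S : Type*} [Group G] (π : S → G)

lemma hol_shift {U : Type*} [Group U] (u : G × S → U) (g : G) (n : FreeGroup S) :
    hol π u g n = FreeGroup.lift (fun e => u (g * e.1, e.2)) (path π 1 n) := by
  have : (FreeGroup.lift u).comp (act G S g).toMonoidHom =
      FreeGroup.lift fun e => u (g * e.1, e.2) := FreeGroup.ext_hom _ _ fun e => by
    obtain ⟨h, s⟩ := e
    simp [act_of]
  rw [← this, hol]
  simp [act_path]

/-- A connection, slack variables with a bound, and a base point. -/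
structure Cfg (G S J A : Type*) [NormedRing A] [StarRing A] where
  u : G × S → unitary A
  z : G × J → A
  g : G
  W : ℝ
  h0 : 0 ≤ W
  hW : ∀ p, ‖z p‖ ≤ W

variable {J R : Type*} (ω : G → FreeGroup S)

/-- Transported sum of slack variables. -/
noncomputable def Lam (u : G × S → unitary A) (z : G × J → A) (g : G) : (G × J →₀ ℤ) →ₗ[ℤ] A :=
  Finsupp.linearCombination ℤ fun p =>
    (hol π u g (ω p.1)).1 * z (g * p.1, p.2) * star (hol π u g (ω p.1)).1

/-- Moving the base point. -/
def Cfg.tr (h : G) (o : Cfg G S J A) : Cfg G S J A := { o with g := o.g * h }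

variable [CompleteSpace A] (r : R → FreeGroup S) (b : FreeGroup S → G × J →₀ ℤ)

/-- The equation at one cell. -/
def Eqn (u : G × S → unitary A) (z : G × J → A) (g : G) (i : R) : Prop :=
  (hol π u g (r i)).1 = NormedSpace.exp (Lam π ω u z g (b (r i)))

/-- Many equations hold and the slack is small. -/
def flt : Filter (Cfg G S J A) :=
  (⨅ c : G × R, 𝓟 {o | Eqn π ω r b o.u o.z (o.g * c.1) c.2}) ⊓ comap Cfg.W (𝓝 0)

lemma tendsto_tr (h : G) : Tendsto (Cfg.tr h) (flt π ω r b (A := A)) (flt π ω r b) := by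
  refine tendsto_inf.mpr ⟨tendsto_iInf.mpr fun c => tendsto_inf_left
    (tendsto_iInf' (h * c.1, c.2) (tendsto_principal_principal.mpr fun o ho => ?_)),
    tendsto_inf_right (tendsto_comap_iff.mpr tendsto_comap)⟩
  simpa [Cfg.tr, mul_assoc] using ho

lemma tendsto_W : Tendsto Cfg.W (flt π ω r b (A := A)) (𝓝 0) := tendsto_inf_right tendsto_comap

lemma ev_eqn (i : R) : ∀ᶠ o in flt π ω r b (A := A), Eqn π ω r b o.u o.z o.g i :=
  mem_inf_of_left (mem_iInf_of_mem (1, i) (by simp))

lemma flt_extract {p : Cfg G S J A → Prop} (h : ∀ᶠ o in flt π ω r b, p o) :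
    ∃ δ : ℝ, 0 < δ ∧ ∃ P : Finset (G × R), ∀ o : Cfg G S J A, o.W ≤ δ →
      (∀ c ∈ P, Eqn π ω r b o.u o.z (o.g * c.1) c.2) → p o := by
  obtain ⟨s, hs, t, ht, e⟩ := mem_inf_iff.mp h
  obtain ⟨t', ht', e'⟩ := mem_comap.mp ht
  obtain ⟨δ, δ0, hδ⟩ := Metric.nhds_basis_closedBall.mem_iff.mp ht'
  obtain ⟨P, hP⟩ := (mem_iInf_finite _).mp hs
  rw [iInf_principal_finset, mem_principal] at hP
  refine ⟨δ, δ0, P, fun o h1 h2 => ?_⟩
  have : o ∈ s ∩ t := ⟨hP (Set.mem_iInter₂.mpr h2), e' (hδ (by simpa [abs_of_nonneg o.h0]))⟩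
  rwa [← e] at this

variable {c : ℝ} (hc : ∀ u : unitary A, ‖(u : A)‖ ≤ c)
include hc

section

variable {Ω : Type*} {l : Filter Ω} {f : Ω → A} {W : Ω → ℝ}

lemma O_unit (U : Ω → unitary A) : (fun o => (U o).1) =O[l] fun _ => (1 : ℝ) :=
  IsBigO.of_bound c (Eventually.of_forall fun o => by simpa using hc (U o))

lemma O_left (U : Ω → unitary A) (h : f =O[l] W) : (fun o => (U o).1 * f o) =O[l] W := by
  simpa using (O_unit hc U).mul h

lemma O_right (U : Ω → unitary A) (h : f =O[l] W) : (fun o => f o * star (U o).1) =O[l] W := by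
  simpa using h.mul (O_unit hc fun o => star (U o))

lemma o_left (U : Ω → unitary A) (h : f =o[l] W) : (fun o => (U o).1 * f o) =o[l] W := by
  simpa using (O_unit hc U).mul_isLittleO h

lemma o_right (U : Ω → unitary A) (h : f =o[l] W) : (fun o => f o * star (U o).1) =o[l] W := by
  simpa using h.mul_isBigO (O_unit hc fun o => star (U o))

omit hc in
lemma o_mul {f' : Ω → A} (hW : Tendsto W l (𝓝 0)) (h : f =O[l] W) (h' : f' =O[l] W) :
    (fun o => f o * f' o) =o[l] W := by
  simpa using h.mul_isLittleO (h'.trans_isLittleO ((isLittleO_one_iff ℝ).mpr hW))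

end

lemma O_conj {l : Filter (Cfg G S J A)} (U : Cfg G S J A → unitary A) (q : Cfg G S J A → G × J) :
    (fun o => (U o).1 * o.z (q o) * star (U o).1) =O[l] Cfg.W :=
  O_right hc U (O_left hc U (IsBigO.of_bound 1 (Eventually.of_forall fun o => by
    simpa [abs_of_nonneg o.h0] using o.hW _)))

lemma O_Lam {l : Filter (Cfg G S J A)} (k : G × J →₀ ℤ) :
    (fun o => Lam π ω o.u o.z o.g k) =O[l] Cfg.W := by
  induction k using Finsupp.induction_linear with
  | zero => simpa using isBigO_zero _ _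
  | add a b ha hb => simpa using ha.add hb
  | single x n =>
    simp only [Lam, Finsupp.linearCombination_single, ← Int.cast_smul_eq_zsmul ℝ]
    exact (O_conj hc _ _).const_smul_left (n : ℝ)

omit hc in
lemma exp_o : (fun X : A => NormedSpace.exp X - 1 - X) =o[𝓝 0] fun X => X := by
  simpa using (hasFDerivAt_exp_zero (𝕂 := ℝ) (𝔸 := A)).isLittleO

lemma gen_o (i : R) : (fun o => (hol π o.u o.g (r i)).1 - 1 - Lam π ω o.u o.z o.g (b (r i)))
    =o[flt π ω r b (A := A)] Cfg.W := by
  have h1 := O_Lam π ω hc (l := flt π ω r b) (b (r i))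
  refine ((exp_o.comp_tendsto (h1.trans_tendsto (tendsto_W π ω r b))).trans_isBigO h1).congr' ?_
    EventuallyEq.rfl
  filter_upwards [ev_eqn π ω r b i] with o ho
  rw [ho]; rfl

variable (hr : (FreeGroup.lift π).ker = Subgroup.normalClosure (Set.range r))
include hr

lemma weak : ∀ n ∈ Subgroup.normalClosure (Set.range r),
    (fun o => (hol π o.u o.g n).1 - 1) =O[flt π ω r b (A := A)] Cfg.W := by
  have k : ∀ n ∈ Subgroup.normalClosure (Set.range r), FreeGroup.lift π n = 1 := fun n hn =>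
    MonoidHom.mem_ker.mp (hr ▸ hn)
  refine nc_ind r (fun i => ?_) (by simpa using isBigO_zero _ _) (fun a ha a' _ h h' => ?_)
    (fun a ha h => ?_) (fun a ha w h => ?_)
  · simpa using (gen_o π ω r b hc i).isBigO.add (O_Lam π ω hc (b (r i)))
  · refine (h.add (O_left hc (fun o => hol π o.u o.g a) h')).congr_left fun o => ?_
    simp [hol_mul, k a ha, mul_sub]
  · refine (O_left hc (fun o => star (hol π o.u o.g a)) h).neg_left.congr_left fun o => ?_
    simp [hol_inv, k a ha, mul_sub, ← Unitary.star_eq_inv]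
  · refine (O_right hc (fun o => hol π o.u o.g w) (O_left hc (fun o => hol π o.u o.g w)
      (h.comp_tendsto (tendsto_tr π ω r b (FreeGroup.lift π w))))).congr_left fun o => ?_
    simp [hol_conj π _ _ _ (k a ha), mul_sub, sub_mul, ← Unitary.star_eq_inv, Cfg.tr]

variable (hω : ∀ g, FreeGroup.lift π (ω g) = g)
include hω

lemma o_transport (w : FreeGroup S) (k : G × J →₀ ℤ) :
    (fun o => (hol π o.u o.g w).1 * Lam π ω o.u o.z (o.g * FreeGroup.lift π w) k *
      star (hol π o.u o.g w).1 - Lam π ω o.u o.z o.g (sh (FreeGroup.lift π w) k))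
      =o[flt π ω r b (A := A)] Cfg.W := by
  induction k using Finsupp.induction_linear with
  | zero => simp
  | add a b ha hb =>
    refine (ha.add hb).congr_left fun o => ?_
    simp only [map_add]
    noncomm_ring
  | single x n =>
    obtain ⟨h, j⟩ := x
    set h' := FreeGroup.lift π w * h
    have hn : FreeGroup.lift π (w * ω h * (ω h')⁻¹) = 1 := by simp [hω, h']
    have l1 := weak π ω r b hc hr _ (hr ▸ MonoidHom.mem_ker.mpr hn)
    have l2 := O_conj hc (l := flt π ω r b) (fun o => hol π o.u o.g (ω h')) fun o => (o.g * h', j)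
    have hW := tendsto_W π ω r b (A := A)
    refine ((o_right hc (fun o => hol π o.u o.g (w * ω h * (ω h')⁻¹))
      ((o_mul hW l1 l2).sub (o_mul hW l2 l1))).const_smul_left (n : ℝ)).congr_left fun o => ?_
    have e : hol π o.u o.g w * hol π o.u (o.g * FreeGroup.lift π w) (ω h) =
        hol π o.u o.g (w * ω h * (ω h')⁻¹) * hol π o.u o.g (ω h') := by
      have := hol_mul π o.u o.g (w * ω h * (ω h')⁻¹) (ω h')
      rw [hn, mul_one, inv_mul_cancel_right] at this
      rw [← hol_mul, this]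
    have e' := congrArg Subtype.val e
    have e2 := (hol π o.u o.g (w * ω h * (ω h')⁻¹)).2.2
    simp only [Submonoid.coe_mul] at e'
    simp only [Lam, sh_single, Finsupp.linearCombination_single, Int.cast_smul_eq_zsmul,
      Pi.smul_apply, mul_smul_comm, smul_mul_assoc, ← smul_sub, mul_assoc o.g]
    congr 1
    generalize (hol π o.u o.g (w * ω h * (ω h')⁻¹)).1 = l at *
    generalize (hol π o.u o.g (ω h')).1 = m at *
    generalize o.z (o.g * h', j) = y
    calc _ = l * m * y * star (l * m) - m * y * star m * (l * star l) := by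
          rw [star_mul]; noncomm_ring
      _ = _ := by rw [e2, ← e', star_mul]; noncomm_ring

variable (b1 : ∀ n n', FreeGroup.lift π n = 1 → FreeGroup.lift π n' = 1 → b (n * n') = b n + b n')
  (b2 : ∀ w n, FreeGroup.lift π n = 1 → b (w * n * w⁻¹) = sh (FreeGroup.lift π w) (b n))
include b1 b2

lemma strong : ∀ n ∈ Subgroup.normalClosure (Set.range r),
    (fun o => (hol π o.u o.g n).1 - 1 - Lam π ω o.u o.z o.g (b n))
      =o[flt π ω r b (A := A)] Cfg.W := by
  have k : ∀ n ∈ Subgroup.normalClosure (Set.range r), FreeGroup.lift π n = 1 := fun n hn =>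
    MonoidHom.mem_ker.mp (hr ▸ hn)
  have b0 : b 1 = 0 := by simpa using b1 1 1 (map_one _) (map_one _)
  have hW := tendsto_W π ω r b (A := A)
  have wk := weak π ω r b hc hr
  refine nc_ind r (gen_o π ω r b hc) (by simp [b0])
    (fun a ha a' ha' h h' => ?_) (fun a ha h => ?_) (fun a ha w h => ?_)
  · refine ((h.add h').add (o_mul hW (wk a ha) (wk a' ha'))).congr_left fun o => ?_
    simp only [hol_mul, k a ha, mul_one, b1 a a' (k a ha) (k a' ha'), map_add, Submonoid.coe_mul]
    noncomm_ring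
  · have e : b a⁻¹ = -b a := by
      rw [eq_neg_iff_add_eq_zero, ← b1 _ _ (by simp [k a ha]) (k a ha), inv_mul_cancel, b0]
    refine ((o_mul hW (wk _ (inv_mem ha)) (wk a ha)).add h).neg_left.congr_left fun o => ?_
    have e2 := (hol π o.u o.g a).2.1
    simp only [hol_inv, k a ha, inv_one, mul_one, e, map_neg, ← Unitary.star_eq_inv,
      Unitary.coe_star, sub_mul, mul_sub, e2]
    noncomm_ring
  · refine ((o_right hc (fun o => hol π o.u o.g w) (o_left hc (fun o => hol π o.u o.g w)
      (h.comp_tendsto (tendsto_tr π ω r b (FreeGroup.lift π w))))).add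
      (o_transport π ω r b hc hr hω w (b a))).congr_left fun o => ?_
    have e2 := (hol π o.u o.g w).2.2
    simp only [hol_conj π _ _ _ (k a ha), b2 w a (k a ha), Submonoid.coe_mul, Function.comp,
      ← Unitary.star_eq_inv, Unitary.coe_star, Cfg.tr, mul_sub, sub_mul, mul_one, e2]
    abel

theorem key [Finite J] (ω1 : ω 1 = 1) (x : J → FreeGroup S) (hx : ∀ j, FreeGroup.lift π (x j) = 1)
    (b3 : ∀ j, b (x j) = Finsupp.single (1, j) 1) :
    ∃ δ : ℝ, 0 < δ ∧ ∃ P : Finset (G × R), ∀ (u : G × S → unitary A) (z : G × J → A) (g : G)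
      (W : ℝ), 0 ≤ W → W ≤ δ → (∀ p, ‖z p‖ ≤ W) → (∀ c ∈ P, Eqn π ω r b u z (g * c.1) c.2) →
      ∀ j, ‖(hol π u g (x j)).1 - 1 - z (g, j)‖ ≤ W / 2 := by
  have := eventually_all.mpr fun j =>
    (strong π ω r b hc hr hω b1 b2 (x j) (hr ▸ hx j)).def (c := 1 / 2) (by norm_num)
  obtain ⟨δ, δ0, P, h⟩ := flt_extract π ω r b this
  refine ⟨δ, δ0, P, fun u z g W h0 h1 h2 h3 j => ?_⟩
  have := h ⟨u, z, g, W, h0, h2⟩ h1 h3 j
  simp only [b3, Lam, Finsupp.linearCombination_single, ω1, hol_one, one_smul, mul_one,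
    OneMemClass.coe_one, one_mul, star_one, Real.norm_eq_abs, abs_of_nonneg h0] at this
  linarith

omit hω b1 b2 in
theorem flat_key {n : FreeGroup S} (hn : FreeGroup.lift π n = 1) : ∃ P : Finset (G × R),
    ∀ u : G × S → unitary A, (∀ c ∈ P, Eqn π ω r b u 0 c.1 c.2) → hol π u 1 n = 1 := by
  obtain ⟨C, hC⟩ := (weak π ω r b hc hr n (hr ▸ hn)).bound
  obtain ⟨δ, δ0, P, h⟩ := flt_extract π ω r b hC
  refine ⟨P, fun u h3 => Subtype.ext ?_⟩
  simpa [sub_eq_zero] using h ⟨u, 0, 1, 0, le_rfl, by simp⟩ δ0.le (by simpa using h3)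

end Vale.Agent.P173B
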