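import Mathlib.GroupTheory.SemidirectProduct
import Mathlib.GroupTheory.FreeGroup.Basic
import Mathlib.LinearAlgebra.Finsupp.LinearCombination
import Mathlib.Algebra.Group.TypeTags.Hom

/-! Edge paths in Cayley graphs, their edge chains (Fox derivatives) and holonomy. -/

namespace Vale.Agent.P173B

open FreeGroup

variable {G S : Type*} [Group G]

/-- Translation action on the free group on the edges `G × S` of the Cayley graph. -/
def act (G S : Type*) [Group G] : G →* MulAut (FreeGroup (G × S)) where
  toFun g := FreeGroup.freeGroupCongr ((Equiv.mulLeft g).prodCongr (Equiv.refl S))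
  map_one' := MulEquiv.toMonoidHom_injective (FreeGroup.ext_hom _ _ fun a => by simp)
  map_mul' g h := MulEquiv.toMonoidHom_injective (FreeGroup.ext_hom _ _ fun a => by
    simp [Prod.map, mul_assoc])

lemma act_of (g h : G) (s : S) : act G S g (of (h, s)) = of (g * h, s) := rfl

/-- A word, as (edge path from the identity, end point). -/
def pth (π : S → G) : FreeGroup S →* FreeGroup (G × S) ⋊[act G S] G :=
  FreeGroup.lift fun s => ⟨of (1, s), π s⟩

lemma pth_right (π : S → G) (w : FreeGroup S) : (pth π w).right = FreeGroup.lift π w := by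
  have : SemidirectProduct.rightHom.comp (pth π) = FreeGroup.lift π :=
    FreeGroup.ext_hom _ _ fun s => by simp [pth]
  exact DFunLike.congr_fun this w

/-- The edge path starting at `g` that reads the word `w`; the edge `(g, s)` joins `g` to
`g * π s`. -/
def path (π : S → G) (g : G) (w : FreeGroup S) : FreeGroup (G × S) := act G S g (pth π w).left

variable (π : S → G)

@[simp] lemma path_one (g : G) : path π g 1 = 1 := by simp [path]

@[simp] lemma path_of (g : G) (s : S) : path π g (of s) = of (g, s) := by
  simp [path, pth, act_of]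

lemma path_mul (g : G) (w w' : FreeGroup S) :
    path π g (w * w') = path π g w * path π (g * FreeGroup.lift π w) w' := by
  simp [path, pth_right]

lemma path_inv (g : G) (w : FreeGroup S) :
    path π g w⁻¹ = (path π (g * (FreeGroup.lift π w)⁻¹) w)⁻¹ := by
  have := path_mul π (g * (FreeGroup.lift π w)⁻¹) w w⁻¹
  rw [mul_inv_cancel, path_one, inv_mul_cancel_right] at this
  exact eq_inv_of_mul_eq_one_right this.symm

lemma act_path (g h : G) (w : FreeGroup S) : act G S g (path π h w) = path π (g * h) w := by
  simp [path]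

/-- The exponent vector of a word. -/
noncomputable def abH (X : Type*) : FreeGroup X →* Multiplicative (X →₀ ℤ) :=
  FreeGroup.lift fun x => Multiplicative.ofAdd (Finsupp.single x 1)

/-- The exponent vector of a word, additively. -/
noncomputable def ab {X : Type*} (w : FreeGroup X) : X →₀ ℤ := (abH X w).toAdd

section

variable {X : Type*}

@[simp] lemma ab_one : ab (1 : FreeGroup X) = 0 := by simp [ab]
@[simp] lemma ab_of (x : X) : ab (of x) = Finsupp.single x 1 := by simp [ab, abH]
@[simp] lemma ab_mul (v w : FreeGroup X) : ab (v * w) = ab v + ab w := by simp [ab]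
@[simp] lemma ab_inv (v : FreeGroup X) : ab v⁻¹ = -ab v := by simp [ab]

lemma ab_surjective : Function.Surjective (ab : FreeGroup X → X →₀ ℤ) := by
  intro c
  induction c using Finsupp.induction_linear with
  | zero => exact ⟨1, ab_one⟩
  | add a b ha hb =>
    obtain ⟨v, rfl⟩ := ha
    obtain ⟨w, rfl⟩ := hb
    exact ⟨v * w, ab_mul _ _⟩
  | single x n => exact ⟨of x ^ n, by simp [ab, abH]⟩

lemma ab_lift {Y : Type*} (f : X → FreeGroup Y) (w : FreeGroup X) :
    ab (FreeGroup.lift f w) = Finsupp.linearCombination ℤ (fun x => ab (f x)) (ab w) := by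
  induction w using FreeGroup.induction_on with
  | C1 => simp
  | of x => simp
  | inv_of x ih => simp
  | mul a b ha hb => simp [ha, hb]

end

/-- The edge chain of the path reading `w` from `g` (the Fox derivative of `w`, moved by `g`). -/
noncomputable def fox (g : G) (w : FreeGroup S) : G × S →₀ ℤ := ab (path π g w)

@[simp] lemma fox_one (g : G) : fox π g 1 = 0 := by simp [fox]

@[simp] lemma fox_of (g : G) (s : S) : fox π g (of s) = Finsupp.single (g, s) 1 := by simp [fox]

lemma fox_mul (g : G) (w w' : FreeGroup S) :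
    fox π g (w * w') = fox π g w + fox π (g * FreeGroup.lift π w) w' := by simp [fox, path_mul]

lemma fox_inv (g : G) (w : FreeGroup S) :
    fox π g w⁻¹ = -fox π (g * (FreeGroup.lift π w)⁻¹) w := by simp [fox, path_inv]

/-- Translation of chains. -/
noncomputable def sh {J : Type*} (g : G) : (G × J →₀ ℤ) →ₗ[ℤ] (G × J →₀ ℤ) :=
  Finsupp.lmapDomain ℤ ℤ fun p => (g * p.1, p.2)

@[simp] lemma sh_single {J : Type*} (g h : G) (j : J) (n : ℤ) :
    sh g (Finsupp.single (h, j) n) = Finsupp.single (g * h, j) n := by simp [sh]

lemma sh_fox (g h : G) (w : FreeGroup S) : sh g (fox π h w) = fox π (g * h) w := by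
  induction w using FreeGroup.induction_on generalizing h with
  | C1 => simp
  | of x => simp
  | inv_of x ih => simp [fox_inv, mul_assoc]
  | mul a b ha hb => simp [fox_mul, ha, hb, mul_assoc]

/-- The boundary of edge chains. -/
noncomputable def bd1 : (G × S →₀ ℤ) →ₗ[ℤ] (G →₀ ℤ) :=
  Finsupp.linearCombination ℤ fun e => Finsupp.single (e.1 * π e.2) 1 - Finsupp.single e.1 1

lemma bd1_fox (g : G) (w : FreeGroup S) :
    bd1 π (fox π g w) = Finsupp.single (g * FreeGroup.lift π w) 1 - Finsupp.single g 1 := by
  induction w using FreeGroup.induction_on generalizing g with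
  | C1 => simp
  | of x => simp [bd1]
  | inv_of x ih => rw [fox_inv, map_neg, ih]; simp
  | mul a b ha hb => simp [fox_mul, ha, hb, mul_assoc]

/-- Holonomy of the connection `u` along the path reading `w` from `g`. -/
def hol {U : Type*} [Group U] (u : G × S → U) (g : G) (w : FreeGroup S) : U :=
  FreeGroup.lift u (path π g w)

section

variable {U : Type*} [Group U] (u : G × S → U)

@[simp] lemma hol_one (g : G) : hol π u g 1 = 1 := by simp [hol]

@[simp] lemma hol_of (g : G) (s : S) : hol π u g (of s) = u (g, s) := by simp [hol]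

lemma hol_mul (g : G) (w w' : FreeGroup S) :
    hol π u g (w * w') = hol π u g w * hol π u (g * FreeGroup.lift π w) w' := by
  simp [hol, path_mul]

lemma hol_inv (g : G) (w : FreeGroup S) :
    hol π u g w⁻¹ = (hol π u (g * (FreeGroup.lift π w)⁻¹) w)⁻¹ := by simp [hol, path_inv]

lemma hol_conj (g : G) (w : FreeGroup S) {n : FreeGroup S} (hn : FreeGroup.lift π n = 1) :
    hol π u g (w * n * w⁻¹) =
      hol π u g w * hol π u (g * FreeGroup.lift π w) n * (hol π u g w)⁻¹ := by
  simp [hol_mul, hol_inv, hn]

lemma lift_congr {X : Type*} {E : Set X} {u u' : X → U} (h : ∀ e ∈ E, u e = u' e)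
    {p : FreeGroup X} (hp : p ∈ Subgroup.closure (of '' E)) :
    FreeGroup.lift u p = FreeGroup.lift u' p := by
  induction hp using Subgroup.closure_induction with
  | mem x hx => obtain ⟨e, he, rfl⟩ := hx; simp [h e he]
  | one => simp
  | mul a b _ _ ha hb => simp [ha, hb]
  | inv a _ ha => simp [ha]

end

lemma nc_ind {F ι : Type*} [Group F] (r : ι → F) {p : F → Prop} (h0 : ∀ i, p (r i)) (h1 : p 1)
    (h2 : ∀ a ∈ Subgroup.normalClosure (Set.range r), ∀ b ∈ Subgroup.normalClosure (Set.range r),
      p a → p b → p (a * b))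
    (h3 : ∀ a ∈ Subgroup.normalClosure (Set.range r), p a → p a⁻¹)
    (h4 : ∀ a ∈ Subgroup.normalClosure (Set.range r), ∀ g, p a → p (g * a * g⁻¹)) :
    ∀ n ∈ Subgroup.normalClosure (Set.range r), p n := by
  intro n hn
  induction hn using Subgroup.closure_induction with
  | mem x hx =>
    obtain ⟨_, ⟨i, rfl⟩, hc⟩ := Group.mem_conjugatesOfSet_iff.mp hx
    obtain ⟨g, rfl⟩ := isConj_iff.mp hc
    exact h4 _ (Subgroup.subset_normalClosure ⟨i, rfl⟩) g (h0 i)
  | one => exact h1
  | mul a b ha hb i1 i2 => exact h2 a ha b hb i1 i2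
  | inv a ha i1 => exact h3 a ha i1

end Vale.Agent.P173B
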