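import Vale.Agent.P173B.Fox
import Mathlib.RingTheory.Localization.Module
import Mathlib.RingTheory.Localization.Integer
import Mathlib.LinearAlgebra.Basis.VectorSpace
import Mathlib.Analysis.SpecialFunctions.Exponential
import Mathlib.Analysis.Calculus.InverseFunctionTheorem.FDeriv

/-! Spanning forests, right inverses and small logarithms. -/

namespace Vale.Agent.P173B

open Finsupp Topology

/-- Rational chains from integer chains. -/
noncomputable def toQ (X : Type*) : (X →₀ ℤ) →ₗ[ℤ] (X →₀ ℚ) :=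
  mapRange.linearMap (Algebra.linearMap ℤ ℚ)

lemma toQ_apply {X : Type*} (c : X →₀ ℤ) (x : X) : toQ X c x = c x := by simp [toQ]

lemma toQ_inj (X : Type*) : Function.Injective (toQ X) := fun a b h => Finsupp.ext fun x => by
  simpa [toQ_apply] using DFunLike.congr_fun h x

@[simp] lemma toQ_single {X : Type*} (x : X) (n : ℤ) : toQ X (single x n) = single x (n : ℚ) := by
  simp [toQ]

variable {G S : Type*} [Group G] (π : S → G)

lemma exists_tree (E : Set (G × S)) : ∃ T ⊆ E,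
    (∀ k : G → Prop, (∀ e ∈ T, k e.1 = k (e.1 * π e.2)) → ∀ e ∈ E, k e.1 = k (e.1 * π e.2)) ∧
    ∀ c : G × S →₀ ℤ, (∀ x ∉ T, c x = 0) → bd1 π c = 0 → c = 0 := by
  classical
  let v : G × S → G →₀ ℚ := fun e => single (e.1 * π e.2) 1 - single e.1 1
  obtain ⟨T, h1, -, h2, h3⟩ := exists_linearIndepOn_extension (linearIndepOn_empty ℚ v)
    (Set.empty_subset E)
  refine ⟨T, h1, fun k hk e he => ?_, fun c hc h => ?_⟩
  · let φ := linearCombination ℚ fun g : G => if k g then (1 : ℚ) else 0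
    have : Submodule.span ℚ (v '' T) ≤ LinearMap.ker φ := Submodule.span_le.mpr (by
      rintro _ ⟨t, ht, rfl⟩
      simp [φ, v, ← hk t ht])
    have h4 := this (h2 ⟨e, he, rfl⟩)
    by_cases a : k e.1 <;> by_cases b : k (e.1 * π e.2) <;> simp_all [φ, v]
  · have e : linearCombination ℚ v ∘ toQ _ = toQ G ∘ bd1 π := by
      have : (linearCombination ℚ v).restrictScalars ℤ ∘ₗ toQ _ = toQ G ∘ₗ bd1 π := by
        ext1 e
        ext1
        simp [bd1, v]
      exact congrArg DFunLike.coe this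
    refine toQ_inj _ ((linearIndepOn_iff.mp h3 _ (mem_supported' _ _ |>.mpr fun x hx => ?_)
      ?_).trans (map_zero _).symm)
    · simp [toQ_apply, hc x hx]
    · simpa [h] using congrFun e c

lemma tree_const {E T : Set (G × S)}
    (h : ∀ k : G → Prop, (∀ e ∈ T, k e.1 = k (e.1 * π e.2)) → ∀ e ∈ E, k e.1 = k (e.1 * π e.2))
    {Y : Type*} (k : G → Y) (hk : ∀ e ∈ T, k e.1 = k (e.1 * π e.2)) :
    ∀ e ∈ E, k e.1 = k (e.1 * π e.2) := fun e he =>
  ((h (fun g => k g = k e.1) (fun t ht => by rw [hk t ht]) e he).mp rfl).symm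

lemma exists_rinv {I X : Type*} [Finite I] (v : I → X →₀ ℤ) (T : Set X)
    (H : ∀ n : I →₀ ℤ, (∀ x ∉ T, linearCombination ℤ v n x = 0) → n = 0) :
    ∃ d : ℕ, 0 < d ∧ ∃ Rm : X → I →₀ ℤ, (∀ x ∈ T, Rm x = 0) ∧
      ∀ i, linearCombination ℤ Rm (v i) = single i (d : ℤ) := by
  classical
  let p : (X →₀ ℤ) →ₗ[ℤ] (X →₀ ℚ) := toQ X ∘ₗ (filterAddHom (· ∉ T)).toIntLinearMap
  have hp : ∀ c x, p c x = if x ∉ T then (c x : ℚ) else 0 := fun c x => by
    change ((filter (· ∉ T) c x : ℤ) : ℚ) = _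
    rw [filter_apply]
    split_ifs <;> simp
  have h1 : LinearIndependent ℤ fun i => p (v i) := linearIndependent_iff.mpr fun n hn =>
    H n fun x hx => by
      have : p (linearCombination ℤ v n) = 0 := by rw [apply_linearCombination]; exact hn
      simpa [hp, hx] using DFunLike.congr_fun this x
  obtain ⟨l, hl⟩ := (linearCombination ℚ fun i => p (v i)).exists_leftInverse_of_injective
    (LinearMap.ker_eq_bot.mpr ((LinearIndependent.iff_fractionRing ℤ ℚ).mp h1))
  let ψ : (X →₀ ℤ) →ₗ[ℤ] (I →₀ ℚ) := l.restrictScalars ℤ ∘ₗ p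
  have h2 : ∀ i, ψ (v i) = single i 1 := fun i => by
    simpa [ψ] using LinearMap.congr_fun hl (single i 1)
  have := Fintype.ofFinite I
  let A : Finset X := Finset.univ.biUnion fun i => (v i).support
  obtain ⟨⟨b, hb⟩, h3⟩ := IsLocalization.exist_integer_multiples_of_finite (nonZeroDivisors ℤ)
    fun q : A × I => ψ (single q.1 1) q.2
  choose z hz using h3
  let Rm : X → I →₀ ℤ := fun x =>
    if h : x ∈ A ∧ x ∉ T then equivFunOnFinite.symm fun i => b * z (⟨x, h.1⟩, i) else 0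
  have h4 : ∀ x ∈ A, toQ I (Rm x) = (b * b) • ψ (single x 1) := fun x hx => by
    by_cases hT : x ∈ T
    · have : p (single x 1) = 0 := Finsupp.ext fun y => by
        by_cases hy : y ∈ T
        · simp [hp, hy]
        · simp [hp, single_eq_of_ne (show y ≠ x by rintro rfl; exact hy hT)]
      simp [Rm, hT, ψ, this]
    · ext i
      have : (z (⟨x, hx⟩, i) : ℚ) = b * ψ (single x 1) i := by simpa using hz (⟨x, hx⟩, i)
      simp [Rm, hx, hT, toQ_apply, this, mul_assoc]
  refine ⟨b.natAbs * b.natAbs, ?_, Rm, fun x hx => by simp [Rm, hx], fun i => toQ_inj _ ?_⟩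
  · have := Int.natAbs_pos.mpr (nonZeroDivisors.ne_zero hb)
    positivity
  · have : (b * b) • ψ (v i) = toQ I (linearCombination ℤ Rm (v i)) := by
      conv_lhs => rw [← sum_single (v i)]
      rw [linearCombination_apply, Finsupp.sum, Finsupp.sum, map_sum, map_sum, Finset.smul_sum]
      refine Finset.sum_congr rfl fun x hx => ?_
      rw [map_smul, h4 x (Finset.mem_biUnion.mpr ⟨i, Finset.mem_univ _, hx⟩), 
        smul_comm ((v i) x), ← map_smul ψ ((v i) x), smul_single, smul_eq_mul, mul_one]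
    rw [← this, h2]
    simp

lemma small_path {A : Type*} [NormedRing A] [NormedAlgebra ℝ A] [StarRing A] [ContinuousStar A]
    [CompleteSpace A] {ε : ℝ} (hε : 0 < ε) : ∃ δ : ℝ, 0 < δ ∧ ∀ u : unitary A, ‖(u : A) - 1‖ ≤ δ →
      ∃ ξ : A, star ξ = -ξ ∧ NormedSpace.exp ξ = u ∧
        ∀ t ∈ Set.Icc (0 : ℝ) 1, ‖NormedSpace.exp (t • ξ) - 1‖ ≤ ε := by
  let : NormedAlgebra ℚ A := NormedAlgebra.restrictScalars ℚ ℝ A
  have hs : HasStrictFDerivAt NormedSpace.exp
      ((ContinuousLinearEquiv.refl ℝ A : A ≃L[ℝ] A) : A →L[ℝ] A) (0 : A) :=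
    hasStrictFDerivAt_exp_zero
  have h1 : ∀ᶠ X : A in 𝓝 0, ‖NormedSpace.exp X - 1‖ ≤ ε := by
    have := hs.continuousAt.tendsto.eventually (Metric.closedBall_mem_nhds _ hε)
    simpa [dist_eq_norm] using this
  obtain ⟨a, a0, ha⟩ := Metric.nhds_basis_closedBall.eventually_iff.mp h1
  let φ := hs.toOpenPartialHomeomorph _
  have h2 : φ.source ∈ 𝓝 (0 : A) := φ.open_source.mem_nhds hs.mem_toOpenPartialHomeomorph_source
  have h3 : ∀ᶠ X : A in 𝓝 0, X ∈ Metric.closedBall 0 a ∧ star X ∈ φ.source ∧ -X ∈ φ.source :=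
    Filter.Eventually.and (Metric.closedBall_mem_nhds _ a0) (Filter.Eventually.and
      (continuous_star.continuousAt.tendsto.eventually (by rwa [star_zero]))
      (continuous_neg.continuousAt.tendsto.eventually (by rwa [neg_zero])))
  have h4 := Filter.image_mem_map (m := NormedSpace.exp) h3
  rw [hs.map_nhds_eq_of_equiv, NormedSpace.exp_zero] at h4
  obtain ⟨δ, δ0, hδ⟩ := Metric.nhds_basis_closedBall.mem_iff.mp h4
  refine ⟨δ, δ0, fun u hu => ?_⟩
  obtain ⟨ξ, ⟨x1, x2, x3⟩, e⟩ := hδ (mem_closedBall_iff_norm.mpr hu)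
  refine ⟨ξ, φ.injOn x2 x3 ?_, e, fun t ht => ha ?_⟩
  · change NormedSpace.exp _ = NormedSpace.exp _
    have : NormedSpace.exp ξ * NormedSpace.exp (-ξ) = 1 := by
      rw [← NormedSpace.exp_add_of_commute (Commute.refl ξ).neg_right]; simp
    rw [← NormedSpace.star_exp, ← mul_one (star _), ← this, e, ← mul_assoc, u.2.1, one_mul]
  · rw [mem_closedBall_zero_iff] at x1 ⊢
    rw [norm_smul, Real.norm_of_nonneg ht.1]
    exact (mul_le_of_le_one_left (norm_nonneg _) ht.2).trans x1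

end Vale.Agent.P173B
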